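import Vale.Agent.P100.Polar

namespace Vale.Agent.Results.P100.Liouville

/-- The Henon-Lane-Emden conjecture: for subcritical parameters there is no positive entire
solution.  `Laplacian.laplacian` is the Laplace operator of Mathlib on Euclidean space. -/
theorem result (n : ℕ) (hn : 2 ≤ n) (p q A B : ℝ) (hp : 0 < p) (hq : 0 < q)
    (hsub : ((n : ℝ) + A) / (p + 1) + ((n : ℝ) + B) / (q + 1) > (n : ℝ) - 2) :
    ¬ ∃ u v : EuclideanSpace ℝ (Fin n) → ℝ,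
      Continuous u ∧ Continuous v ∧
      ContDiffOn ℝ 2 u {0}ᶜ ∧ ContDiffOn ℝ 2 v {0}ᶜ ∧
      (∀ x, 0 < u x) ∧ (∀ x, 0 < v x) ∧
      (∀ x, x ≠ 0 → -Laplacian.laplacian u x = ‖x‖ ^ A * v x ^ p) ∧
      (∀ x, x ≠ 0 → -Laplacian.laplacian v x = ‖x‖ ^ B * u x ^ q) := by
  rintro ⟨u, v, hu0, hv0, hu2, hv2, hup, hvp, h1, h2⟩
  refine Vale.Agent.P100.main (E := EuclideanSpace ℝ (Fin n)) (A := A) (B := B) ?_ hp hq ?_
    hu0 hv0 hu2 hv2 hup hvp h1 h2
  · rwa [finrank_euclideanSpace_fin]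
  · rw [finrank_euclideanSpace_fin]; exact hsub

end Vale.Agent.Results.P100.Liouville
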